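import Vale.Agent.P333.Machine

namespace Vale.Agent.Results.P333.TwoApprox

open Vale.Agent.P333

theorem result : ∃ f : List (List ℕ) → List ℕ,
    (∃ M : Turing.TM2ComputableInPolyTime codeInstance codeString f, ∀ k, Finite (M.tm.Γ k)) ∧
    ∀ S : List (List ℕ), IsSuperstring S (f S) ∧ (f S).length ≤ 2 * opt S := by
  refine ⟨alg, alg_machine, fun S => ⟨(alg_spec S).1, ?_⟩⟩
  obtain ⟨T, h1, h2⟩ := Nat.sInf_mem (s := {n | ∃ T, IsSuperstring S T ∧ T.length = n})
    ⟨_, alg S, (alg_spec S).1, rfl⟩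
  rw [opt, ← h2]
  exact (alg_spec S).2 T h1

end Vale.Agent.Results.P333.TwoApprox
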